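import Mathlib

/-!
# P196: a large class of groups containing no infinite finitely presented simple group
-/

namespace Vale.Agent.P196

/-- `ψ : G → H` is a local embedding on the finite set `E`: it is injective on `E` and preserves
every product `g * h` with `g, h, g * h ∈ E`. -/
def IsLocalEmbedding {G H : Type} [Group G] [Group H] (E : Finset G) (ψ : G → H) : Prop :=
  Set.InjOn ψ (E : Set G) ∧ ∀ g ∈ E, ∀ h ∈ E, g * h ∈ E → ψ (g * h) = ψ g * ψ h

/-- The smallest class of groups that contains all finite groups and all abelian groups and is
closed under passing to subgroups (more precisely: to groups that embed), under extensions, and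
under local embeddability: if every finite subset `E` of `G` admits a local embedding into a group
`H E` of the class, then `G` is in the class. -/
inductive InClosure : (G : Type) → [Group G] → Prop
  | finite (G : Type) [Group G] [Finite G] : InClosure G
  | abelian (G : Type) [Group G] (h : ∀ a b : G, a * b = b * a) : InClosure G
  | subgroup (G H : Type) [Group G] [Group H] (f : H →* G) (hf : Function.Injective f) :
      InClosure G → InClosure H
  | extension (G : Type) [Group G] (N : Subgroup G) [N.Normal] :
      InClosure N → InClosure (G ⧸ N) → InClosure G
  | locallyEmbeddable (G : Type) [Group G] (H : Finset G → Type) [∀ E, Group (H E)]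
      (ψ : ∀ E, G → H E) (hψ : ∀ E, IsLocalEmbedding E (ψ E)) :
      (∀ E, InClosure (H E)) → InClosure G

end Vale.Agent.P196
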