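import Vale.Agent.P196.Defs

namespace Vale.Agent.P196

open Function

/-- A finitely presented simple group that embeds into a group `G` all of whose finite subsets
admit local embeddings into groups `H E` embeds into one of the groups `H E`. -/
theorem exists_embedding {S G : Type} [Group S] [Group G] [IsSimpleGroup S]
    [Group.IsFinitelyPresented S] (i : S →* G) (hi : Injective i)
    (H : Finset G → Type) [∀ E, Group (H E)] (ψ : ∀ E, G → H E)
    (hψ : ∀ E, IsLocalEmbedding E (ψ E)) :
    ∃ E, ∃ j : S →* H E, Injective j := by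
  classical
  obtain ⟨n, φ, hφsurj, R, hRfin, hRker⟩ := Group.IsFinitelyPresented.out (G := S)
  set θ : FreeGroup (Fin n) →* G := i.comp φ with hθ
  set W : Finset (List (Fin n × Bool)) :=
    (hRfin.toFinset.biUnion fun r => (r.toWord.tails).toFinset) ∪
      (Finset.univ.image fun x : Fin n × Bool => [x]) ∪ {[]} with hW
  set E : Finset G := W.image (fun L => θ (FreeGroup.mk L)) with hE
  obtain ⟨hinj, hmul⟩ := hψ E
  set ψE := ψ E with hψE
  set Ψ : FreeGroup (Fin n) →* H E := FreeGroup.lift (fun j => ψE (θ (FreeGroup.of j))) with hΨ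
  have memE : ∀ L ∈ W, θ (FreeGroup.mk L) ∈ E := fun L hL => Finset.mem_image_of_mem _ hL
  have nilW : ([] : List (Fin n × Bool)) ∈ W := by simp [hW]
  have singW : ∀ x : Fin n × Bool, [x] ∈ W := by intro x; simp [hW]
  have oneE : (1 : G) ∈ E := by
    have := memE [] nilW
    rwa [← FreeGroup.one_eq_mk, map_one] at this
  have ψone : ψE 1 = 1 := by
    have := hmul 1 oneE 1 oneE (by simpa using oneE)
    rw [mul_one] at this
    exact (mul_eq_left.mp this.symm)
  have h4 : ∀ x : Fin n × Bool, Ψ (FreeGroup.mk [x]) = ψE (θ (FreeGroup.mk [x])) := by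
    rintro ⟨k, b⟩
    cases b with
    | true =>
      have : FreeGroup.mk [(k, true)] = FreeGroup.of k := rfl
      rw [this, hΨ, FreeGroup.lift_apply_of]
    | false =>
      have h1 : FreeGroup.mk [(k, false)] = (FreeGroup.of k)⁻¹ := by
        simp [FreeGroup.of, FreeGroup.inv_mk, FreeGroup.invRev]
      have hk : θ (FreeGroup.of k) ∈ E := memE _ (singW (k, true))
      have hk' : θ (FreeGroup.of k)⁻¹ ∈ E := by
        have := memE _ (singW (k, false))
        rwa [h1] at this
      rw [h1, map_inv, hΨ, FreeGroup.lift_apply_of]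
      have h2 := hmul _ hk _ hk' (by rw [map_inv, mul_inv_cancel]; exact oneE)
      rw [map_inv, mul_inv_cancel, ψone] at h2
      rw [map_inv]
      exact (eq_inv_of_mul_eq_one_right h2.symm).symm
  have h5 : ∀ L : List (Fin n × Bool), (∀ L' ∈ L.tails, L' ∈ W) →
      Ψ (FreeGroup.mk L) = ψE (θ (FreeGroup.mk L)) := by
    intro L
    induction L with
    | nil =>
      intro _
      rw [← FreeGroup.one_eq_mk, map_one, map_one, ψone]
    | cons x L ih =>
      intro hL
      have hL1 : ∀ L' ∈ L.tails, L' ∈ W := fun L' hL' => hL L' (by simp [List.tails, hL'])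
      have hLW : L ∈ W := hL1 L (by simp)
      have hxLW : (x :: L) ∈ W := hL _ (by simp [List.tails])
      have hsplit : FreeGroup.mk (x :: L) = FreeGroup.mk [x] * FreeGroup.mk L := by
        rw [FreeGroup.mul_mk]; rfl
      have h6 := hmul _ (memE _ (singW x)) _ (memE _ hLW)
        (by rw [← map_mul, ← hsplit]; exact memE _ hxLW)
      rw [hsplit, map_mul, map_mul, h6, h4 x, ih hL1]
  have h6 : ∀ r ∈ R, Ψ r = 1 := by
    intro r hr
    have h7 : Ψ (FreeGroup.mk r.toWord) = ψE (θ (FreeGroup.mk r.toWord)) := by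
      apply h5
      intro L' hL'
      simp only [hW, Finset.mem_union, Finset.mem_biUnion, Set.Finite.mem_toFinset,
        List.mem_toFinset]
      exact Or.inl (Or.inl ⟨r, hr, hL'⟩)
    rw [FreeGroup.mk_toWord] at h7
    have h8 : φ r = 1 := by
      have : r ∈ φ.ker := hRker ▸ Subgroup.subset_normalClosure hr
      exact this
    rw [h7, hθ, MonoidHom.comp_apply, h8, map_one, ψone]
  have h7 : φ.ker ≤ Ψ.ker := by
    rw [← hRker]
    exact Subgroup.normalClosure_le_normal (fun r hr => h6 r hr)
  let j : S →* H E := φ.liftOfSurjective hφsurj ⟨Ψ, h7⟩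
  have hj : ∀ w, j (φ w) = Ψ w := fun w =>
    MonoidHom.liftOfRightInverse_comp_apply φ _ (Function.rightInverse_surjInv hφsurj) ⟨Ψ, h7⟩ w
  have h9 : ∃ k, φ (FreeGroup.of k) ≠ 1 := by
    by_contra hcon
    push Not at hcon
    have hφ1 : φ = 1 := FreeGroup.ext_hom _ _ (fun k => by simpa using hcon k)
    obtain ⟨s, hs⟩ := exists_ne (1 : S)
    obtain ⟨w, rfl⟩ := hφsurj s
    exact hs (by rw [hφ1]; rfl)
  obtain ⟨k, hk⟩ := h9
  refine ⟨E, j, ?_⟩
  rw [← MonoidHom.ker_eq_bot_iff]
  rcases (MonoidHom.normal_ker j).eq_bot_or_eq_top with h | h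
  · exact h
  · exfalso
    have h10 : j (φ (FreeGroup.of k)) = 1 := by
      have : φ (FreeGroup.of k) ∈ j.ker := by rw [h]; trivial
      exact this
    rw [hj, hΨ, FreeGroup.lift_apply_of, ← ψone] at h10
    have h11 := hinj (Finset.mem_coe.mpr (memE _ (singW (k, true)))) (Finset.mem_coe.mpr oneE) h10
    have h12 : i (φ (FreeGroup.of k)) = i 1 := by rw [map_one]; exact h11
    exact hk (hi h12)

/-- Every finitely presented simple group embedding into a group of the class is finite. -/
theorem finite_of_embeds {G : Type} [Group G] (hG : InClosure G) :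
    ∀ (S : Type) [Group S] [IsSimpleGroup S] [Group.IsFinitelyPresented S] (i : S →* G),
      Injective i → Finite S := by
  induction hG with
  | finite G =>
    intro S _ _ _ i hi
    exact Finite.of_injective i hi
  | abelian G h =>
    intro S _ _ _ i hi
    have hc : ∀ a b : S, a * b = b * a := fun a b => hi (by rw [map_mul, map_mul, h])
    let _ : CommGroup S := { (inferInstance : Group S) with mul_comm := hc }
    have hp : (Nat.card S).Prime := CommGroup.is_simple_iff_prime_card.mp inferInstance
    exact Nat.finite_of_card_ne_zero hp.ne_zero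
  | subgroup G H f hf _ ih =>
    intro S _ _ _ i hi
    exact ih S (f.comp i) (hf.comp hi)
  | extension G N _ _ ihN ihQ =>
    intro S _ _ _ i hi
    let q : S →* G ⧸ N := (QuotientGroup.mk' N).comp i
    rcases (MonoidHom.normal_ker q).eq_bot_or_eq_top with h | h
    · exact ihQ S q ((MonoidHom.ker_eq_bot_iff q).mp h)
    · have hmem : ∀ s, i s ∈ N := by
        intro s
        have : s ∈ q.ker := by rw [h]; trivial
        have h2 : (QuotientGroup.mk' N) (i s) = 1 := this
        rwa [QuotientGroup.mk'_apply, QuotientGroup.eq_one_iff] at h2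
      let i' : S →* N := i.codRestrict N hmem
      refine ihN S i' ?_
      intro a b hab
      apply hi
      exact congrArg Subtype.val hab
  | locallyEmbeddable G H ψ hψ _ ih =>
    intro S _ _ _ i hi
    obtain ⟨E, j, hj⟩ := exists_embedding i hi H ψ hψ
    exact ih E S j hj

end Vale.Agent.P196
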